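import Vale.Agent.P210K.All

open scoped ContDiff Topology

namespace Vale.Agent.Results.P210.Kleinian

open Vale.Agent.P210

theorem result (n : ℕ) (hn : 3 ≤ n) : ∃ C : ℝ, ∀ (Ω : Set (E n)) (w : E n → ℝ),
    IsOpen Ω → IsConnected Ω → ContDiffOn ℝ ∞ w Ω → Complete Ω (conf w) →
    (∀ x ∈ Ω, 1 ≤ scal (conf w) x) →
    ∀ (G : Type) [Group G] [MulAction G Ω],
    (∀ γ : G, ∃ φ : E n → E n, Isom Ω (conf w) φ ∧ ∀ x : Ω, φ x = (γ • x : Ω)) →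
    ∃ (V : Type) (K : AbstractSimplicialComplex V)
      (f : Quotient (MulAction.orbitRel G Ω) → space K),
      (∀ s ∈ K.faces, s.card ≤ n / 2 + 1 ∧ s.card ≤ (n - 2) + 1) ∧
      @Continuous (Quotient (MulAction.orbitRel G Ω)) (space K) inferInstance (spaceTop K) f ∧
      ∀ x y : Ω, f (Quotient.mk _ x) = f (Quotient.mk _ y) →
        ⨅ γ : G, rdist Ω (conf w) x (γ • y : Ω) ≤ ENNReal.ofReal C := by
  obtain ⟨C, hC⟩ := tkMain n hn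
  refine ⟨C, fun Ω w h1 h2 h3 h4 h5 G _ _ h6 => ?_⟩
  obtain ⟨V, K, f, hK, hf, hd⟩ := hC Ω w h1 h2 h3 h4 h5 G h6
  exact ⟨V, K, f, fun s hs => ⟨hK s hs, (hK s hs).trans (by omega)⟩, hf, hd⟩

end Vale.Agent.Results.P210.Kleinian
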